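import Vale.Agent.P240.R2.H986.X.NT
import Vale.Agent.P240.R2.H684.X2

/-!
Row X3: the split BN-pair of a group given by Chevalley's relations.
-/

set_option autoImplicit false

namespace Vale.Agent.P240.R2.H684.XB

open Subgroup Vale.Agent.P240.H195 Vale.Agent.P240.R2.H986.X Vale.Agent.P240.R2.H986.X.CS

universe u

section
variable {ι : Type*} {F : Type*} [Field F] {L : Type*} [Group L] {C : RC ι} {x : ι → F → L}

lemma n_act (h : CS C x) (i j : ι) : ∃ c : F, c ≠ 0 ∧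
    ∀ u, nn C.neg x i 1 * x j u * (nn C.neg x i 1)⁻¹ = x (C.s i j) (c * u) := by
  obtain ⟨c, hc, h1⟩ := h.refl i j
  refine ⟨c, left_ne_zero_of_mul_eq_one hc, fun u => ?_⟩
  rw [(h1 1 u one_ne_zero).1, one_zpow, mul_one]

lemma n_inv_act (h : CS C x) (i j : ι) : ∃ c : F, c ≠ 0 ∧
    ∀ u, (nn C.neg x i 1)⁻¹ * x j u * nn C.neg x i 1 = x (C.s i j) (c * u) := by
  obtain ⟨c, hc, h1⟩ := n_act h i (C.s i j)
  refine ⟨c⁻¹, inv_ne_zero hc, fun u => ?_⟩
  have h2 := h1 (c⁻¹ * u)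
  rw [C.s_s, mul_inv_cancel_left₀ hc] at h2
  rw [← h2]
  group

/-- The group generated by the root elements of the positive roots different from `i`. -/
def Ui (C : RC ι) (x : ι → F → L) (i : ι) : Subgroup L := gr x (fun j => 0 < C.ht j ∧ j ≠ i)

omit [Field F] in
lemma Ui_le (i : ι) : Ui C x i ≤ UU C x := XU.gr_mono fun _ hj => hj.1

lemma ne_neg {i j : ι} (hi : 0 < C.ht i) (hj : 0 < C.ht j) : i ≠ C.neg j := by
  intro he
  have h1 := C.ht_neg j
  rw [← he] at h1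
  omega

lemma Ui_conj_x (h : CS C x) {i : ι} (hi : C.simp i) (t : F) {g : L} (hg : g ∈ Ui C x i) :
    x i t * g * (x i t)⁻¹ ∈ Ui C x i := by
  refine closure_induction (p := fun g _ => x i t * g * (x i t)⁻¹ ∈ Ui C x i) ?_ ?_ ?_ ?_ hg
  · rintro _ ⟨j, v, hj, rfl⟩
    have hi0 := C.simp_pos i hi
    have h1 := h.comm i j (Ne.symm hj.2) (ne_neg hi0 hj.1) t v
    have h2 : gr x (C.cone i j) ≤ Ui C x i := XU.gr_mono fun k hk =>
      ⟨lt_trans hi0 (C.cone_ht i j k hk hi0 hj.1).1, C.cone_simp i j k hi hj.1 hj.2 hk⟩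
    have h3 : x i t * x j v * (x i t)⁻¹ =
        x i t * x j v * (x i t)⁻¹ * (x j v)⁻¹ * x j v := by
      rw [inv_mul_cancel_right]
    rw [h3]
    exact mul_mem (h2 h1) (subset_closure ⟨j, v, hj, rfl⟩)
  · rw [mul_one, mul_inv_cancel]
    exact one_mem _
  · intro a b _ _ h1 h2
    have e1 : x i t * (a * b) * (x i t)⁻¹ = (x i t * a * (x i t)⁻¹) * (x i t * b * (x i t)⁻¹) := by
      group
    rw [e1]
    exact mul_mem h1 h2
  · intro a _ h1
    have e1 : x i t * a⁻¹ * (x i t)⁻¹ = (x i t * a * (x i t)⁻¹)⁻¹ := by group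
    rw [e1]
    exact inv_mem h1

/-- `U = U_i X_i` -/
lemma U_dec (h : CS C x) {i : ι} (hi : C.simp i) {g : L} (hg : g ∈ UU C x) :
    ∃ v ∈ Ui C x i, ∃ c : F, g = v * x i c := by
  have key : ∀ (j : ι) (t : F), 0 < C.ht j → ∀ y : L, (∃ v ∈ Ui C x i, ∃ c : F, y = v * x i c) →
      ∃ v ∈ Ui C x i, ∃ c : F, x j t * y = v * x i c := by
    rintro j t hj _ ⟨v, hv, c, rfl⟩
    by_cases hji : j = i
    · subst hji
      refine ⟨x j t * v * (x j t)⁻¹, Ui_conj_x h hi t hv, t + c, ?_⟩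
      rw [h.add]
      group
    · refine ⟨x j t * v, mul_mem (subset_closure ⟨j, t, ⟨hj, hji⟩, rfl⟩) hv, c, ?_⟩
      rw [mul_assoc]
  refine closure_induction_left (p := fun g _ => ∃ v ∈ Ui C x i, ∃ c : F, g = v * x i c)
    ⟨1, one_mem _, 0, by rw [h.x_zero, mul_one]⟩ ?_ ?_ hg
  · rintro _ ⟨j, t, hj, rfl⟩ y _ hy
    exact key j t hj y hy
  · rintro _ ⟨j, t, hj, rfl⟩ y _ hy
    rw [← h.x_neg]
    exact key j (-t) hj y hy

lemma Ui_conj_n (h : CS C x) {i : ι} (hi : C.simp i) {g : L} (hg : g ∈ Ui C x i) :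
    nn C.neg x i 1 * g * (nn C.neg x i 1)⁻¹ ∈ Ui C x i := by
  have h1 := h.nl_conj_gr (p := fun j => 0 < C.ht j ∧ j ≠ i) (q := fun j => 0 < C.ht j ∧ j ≠ i)
    (l := [i]) (fun j hj => ?_) hg
  · rw [nl_cons, nl_nil, mul_one] at h1
    exact h1
  · rw [wl_cons, wl_nil]
    refine ⟨C.s_pos i j hi hj.1 hj.2, fun he => ?_⟩
    have h2 := C.s_s i j
    rw [he, C.s_self] at h2
    have h3 := C.ht_neg i
    have h4 := C.simp_pos i hi
    have h5 := hj.1
    rw [← h2] at h5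
    omega

lemma Ui_normal (h : CS C x) {i : ι} (hi : C.simp i) {g u : L} (hu : u ∈ UU C x)
    (hg : g ∈ Ui C x i) : u * g * u⁻¹ ∈ Ui C x i := by
  obtain ⟨v, hv, c, rfl⟩ := U_dec h hi hu
  have e1 : v * x i c * g * (v * x i c)⁻¹ = v * (x i c * g * (x i c)⁻¹) * v⁻¹ := by group
  rw [e1]
  exact mul_mem (mul_mem hv (Ui_conj_x h hi c hg)) (inv_mem hv)

lemma simp_neg_lt {i : ι} (hi : C.simp i) : C.ht (C.neg i) < 0 := by
  have h1 := C.ht_neg i
  have h2 := C.simp_pos i hi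
  omega

/-- the elements of `U` that stay in `U` -/
lemma mem_Ui (h : CS C x) {i : ι} (hi : C.simp i) {g : L} (hg : g ∈ UU C x)
    (hg' : nn C.neg x i 1 * g * (nn C.neg x i 1)⁻¹ ∈ UU C x) : g ∈ Ui C x i := by
  obtain ⟨v, hv, c, rfl⟩ := U_dec h hi hg
  obtain ⟨d, hd, h1⟩ := n_act h i i
  have e1 : nn C.neg x i 1 * (v * x i c) * (nn C.neg x i 1)⁻¹ =
      (nn C.neg x i 1 * v * (nn C.neg x i 1)⁻¹) *
        (nn C.neg x i 1 * x i c * (nn C.neg x i 1)⁻¹) := by group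
  rw [e1, h1, C.s_self] at hg'
  have h2 := (mul_mem_cancel_left (Ui_le i (Ui_conj_n h hi hv))).1 hg'
  have h3 := h.x_not_mem (simp_neg_lt hi) h2
  rcases mul_eq_zero.1 h3 with h4 | h4
  · exact absurd h4 hd
  · rw [h4, h.x_zero, mul_one]
    exact hv

lemma N_conj_T (h : CS C x) {n t : L} (hn : n ∈ NN C x) (ht : t ∈ TT C x) :
    n * t * n⁻¹ ∈ TT C x := by
  obtain ⟨t', ht', l, -, rfl⟩ := h.mem_NN hn
  have e1 : t' * nl C x l * t * (t' * nl C x l)⁻¹ =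
      t' * (nl C x l * t * (nl C x l)⁻¹) * t'⁻¹ := by group
  rw [e1]
  exact mul_mem (mul_mem ht' (h.nl_conj_T l ht)) (inv_mem ht')

/-- the action of the elements of `N` on the root elements -/
lemma N_act (h : CS C x) {n : L} (hn : n ∈ NN C x) : ∃ l : List ι, ∀ j, ∃ c : F, c ≠ 0 ∧
    ∀ u, n * x j u * n⁻¹ = x (wl C l j) (c * u) := by
  obtain ⟨t, ht, l, -, rfl⟩ := h.mem_NN hn
  refine ⟨l, fun j => ?_⟩
  obtain ⟨c, hc, h1⟩ := h.nl_act l j
  obtain ⟨d, hd, h2⟩ := h.T_act ht (wl C l j)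
  refine ⟨d * c, mul_ne_zero hd hc, fun u => ?_⟩
  have e1 : t * nl C x l * x j u * (t * nl C x l)⁻¹ =
      t * (nl C x l * x j u * (nl C x l)⁻¹) * t⁻¹ := by group
  rw [e1, h1, h2, mul_assoc]

/-- `x_i(c) = n_i(c) x_i(-c) x_{-i}(c⁻¹)` -/
lemma x_eq (h : CS C x) (i : ι) (c : F) :
    x i c = nn C.neg x i c * x i (-c) * x (C.neg i) c⁻¹ := by
  rw [nn, h.x_neg, h.x_neg]
  group

/-- the axiom of the double cosets -/
lemma mul_DC (h : CS C x) {i : ι} (hi : C.simp i) {b n : L} (hb : b ∈ BB C x) (hn : n ∈ NN C x) :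
    DC (BB C x) n (nn C.neg x i 1 * b * n) ∨
      DC (BB C x) (nn C.neg x i 1 * n) (nn C.neg x i 1 * b * n) := by
  obtain ⟨g, hg, t, ht, rfl⟩ := h.mem_BB hb
  obtain ⟨v, hv, c, rfl⟩ := U_dec h hi hg
  obtain ⟨l, hl⟩ := N_act h (inv_mem hn)
  set s := nn C.neg x i 1 with hs
  have hvB : s * v * s⁻¹ ∈ BB C x := UU_le (Ui_le i (Ui_conj_n h hi hv))
  have htn : n⁻¹ * t * n ∈ BB C x := by
    have h1 := N_conj_T h (inv_mem hn) ht
    rw [inv_inv] at h1
    exact TT_le_BB h1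
  by_cases hk : 0 < C.ht (wl C l i)
  · right
    obtain ⟨d, -, h1⟩ := hl i
    have h2 := h1 c
    rw [inv_inv] at h2
    refine ⟨s * v * s⁻¹, hvB, (n⁻¹ * x i c * n) * (n⁻¹ * t * n), mul_mem ?_ htn, ?_⟩
    · rw [h2]
      exact UU_le (x_mem_UU hk _)
    · group
  · have hk' : 0 < C.ht (wl C l (C.neg i)) := by
      have h1 := C.ht_ne (wl C l i)
      rw [wl_neg, C.ht_neg]
      omega
    by_cases hc : c = 0
    · right
      subst hc
      refine ⟨s * v * s⁻¹, hvB, n⁻¹ * t * n, htn, ?_⟩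
      rw [h.x_zero]
      group
    · left
      obtain ⟨d, -, h1⟩ := hl (C.neg i)
      have h2 := h1 c⁻¹
      rw [inv_inv] at h2
      refine ⟨s * v * s⁻¹ * (s * nn C.neg x i c) * x i (-c), mul_mem (mul_mem hvB ?_) ?_,
        (n⁻¹ * x (C.neg i) c⁻¹ * n) * (n⁻¹ * t * n), mul_mem ?_ htn, ?_⟩
      · exact TT_le_BB (h.nn_nn one_ne_zero hc)
      · exact UU_le (x_mem_UU (C.simp_pos i hi) _)
      · rw [h2]
        exact UU_le (x_mem_UU hk' _)
      · have h3 := x_eq h i c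
        calc s * (v * x i c * t) * n
            = s * (v * (nn C.neg x i c * x i (-c) * x (C.neg i) c⁻¹) * t) * n := by rw [← h3]
          _ = _ := by group

/-- an element acting trivially on the root elements is trivial -/
lemma eq_one_of_act (h : CS C x) (hc : ∀ g : L, (∀ y, g * y = y * g) → g = 1) {g : L}
    (hg : ∀ j u, g * x j u * g⁻¹ = x j u) : g = 1 := by
  apply hc
  intro y
  have h1 : y ∈ centralizer ({g} : Set L) := by
    have h2 : (⊤ : Subgroup L) ≤ centralizer ({g} : Set L) := by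
      rw [← h.gen, gr, closure_le]
      rintro _ ⟨j, u, -, rfl⟩
      rw [SetLike.mem_coe, mem_centralizer_singleton_iff]
      rw [mul_inv_eq_iff_eq_mul.1 (hg j u)]
    exact h2 (mem_top y)
  rw [mem_centralizer_singleton_iff] at h1
  exact h1.symm

/-- `T` is abelian -/
theorem T_comm (h : CS C x) (hc : ∀ g : L, (∀ y, g * y = y * g) → g = 1) {t t' : L}
    (ht : t ∈ TT C x) (ht' : t' ∈ TT C x) : t * t' = t' * t := by
  have h1 : t * t' * t⁻¹ * t'⁻¹ = 1 := by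
    apply eq_one_of_act h hc
    intro j u
    obtain ⟨c, hc0, h1⟩ := h.T_act ht j
    obtain ⟨d, hd0, h2⟩ := h.T_act ht' j
    have h1' : ∀ u, t⁻¹ * x j u * t = x j (c⁻¹ * u) := by
      intro u
      have h3 := h1 (c⁻¹ * u)
      rw [mul_inv_cancel_left₀ hc0] at h3
      rw [← h3]
      group
    have h2' : ∀ u, t'⁻¹ * x j u * t' = x j (d⁻¹ * u) := by
      intro u
      have h3 := h2 (d⁻¹ * u)
      rw [mul_inv_cancel_left₀ hd0] at h3
      rw [← h3]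
      group
    calc t * t' * t⁻¹ * t'⁻¹ * x j u * (t * t' * t⁻¹ * t'⁻¹)⁻¹
        = t * (t' * (t⁻¹ * (t'⁻¹ * x j u * t') * t) * t'⁻¹) * t⁻¹ := by group
      _ = x j u := by
        rw [h2', h1', h2, h1]
        congr 1
        field_simp
  rw [mul_inv_eq_one, mul_inv_eq_iff_eq_mul] at h1
  exact h1

lemma T_pow_act {t : L} {j : ι} {c : F} (h1 : ∀ u, t * x j u * t⁻¹ = x j (c * u))
    (n : ℕ) : ∀ u, t ^ n * x j u * (t ^ n)⁻¹ = x j (c ^ n * u) := by
  induction n with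
  | zero => intro u; simp
  | succ n ih =>
    intro u
    have e1 : t ^ (n + 1) * x j u * (t ^ (n + 1))⁻¹ =
        t * (t ^ n * x j u * (t ^ n)⁻¹) * t⁻¹ := by
      rw [pow_succ']; group
    rw [e1, ih, h1, pow_succ', mul_assoc]

/-- `t ^ (|F| - 1) = 1` -/
theorem T_pow [Finite F] (h : CS C x) (hc : ∀ g : L, (∀ y, g * y = y * g) → g = 1) {t : L}
    (ht : t ∈ TT C x) : t ^ (Nat.card F - 1) = 1 := by
  have := Fintype.ofFinite F
  apply eq_one_of_act h hc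
  intro j u
  obtain ⟨c, hc0, h1⟩ := h.T_act ht j
  rw [T_pow_act h1, Nat.card_eq_fintype_card, FiniteField.pow_card_sub_one_eq_one c hc0, one_mul]

lemma cop (F : Type*) [Field F] [Finite F] (r : ℕ) [Fact r.Prime] [CharP F r] (k : ℕ) :
    Nat.Coprime (r ^ k) (Nat.card F - 1) := by
  have := Fintype.ofFinite F
  apply Nat.Coprime.pow_left
  rw [Nat.Prime.coprime_iff_not_dvd Fact.out]
  intro h1
  have h2 : r ∣ Nat.card F := by
    rw [← CharP.cast_eq_zero_iff F r, Nat.card_eq_fintype_card]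
    exact FiniteField.cast_card_eq_zero F
  have h3 : 0 < Nat.card F := Nat.card_pos
  have h4 : r ∣ 1 := by
    have h5 := (Nat.dvd_sub h2 h1)
    have h6 : Nat.card F - (Nat.card F - 1) = 1 := by omega
    rwa [h6] at h5
  exact (Fact.out : r.Prime).one_lt.ne' (Nat.dvd_one.1 h4)

lemma T_eq_one [Finite F] (h : CS C x) (hc : ∀ g : L, (∀ y, g * y = y * g) → g = 1)
    (r : ℕ) [Fact r.Prime] [CharP F r] {t : L} (ht : t ∈ TT C x) {k : ℕ} (hk : t ^ r ^ k = 1) :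
    t = 1 := by
  have h1 := orderOf_dvd_of_pow_eq_one hk
  have h2 := orderOf_dvd_of_pow_eq_one (T_pow h hc ht)
  have h3 := Nat.Coprime.eq_one_of_dvd ((cop F r k).coprime_dvd_left h1) h2
  exact orderOf_eq_one_iff.1 h3

/-- the elements of `B` of `r`-power order -/
lemma mem_U_of_pow [Finite ι] [Finite F] (h : CS C x)
    (hc : ∀ g : L, (∀ y, g * y = y * g) → g = 1)
    (r : ℕ) [Fact r.Prime] [CharP F r] {g : L} (hg : g ∈ BB C x) {k : ℕ} (hk : g ^ r ^ k = 1) :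
    g ∈ UU C x := by
  obtain ⟨u, hu, t, ht, rfl⟩ := h.mem_BB hg
  have h1 : ∀ n : ℕ, ∃ v ∈ UU C x, (u * t) ^ n = v * t ^ n := by
    intro n
    induction n with
    | zero => exact ⟨1, one_mem _, by simp⟩
    | succ n ih =>
      obtain ⟨v, hv, hv'⟩ := ih
      refine ⟨v * (t ^ n * u * (t ^ n)⁻¹), mul_mem hv (h.T_conj_gr (pow_mem ht n) hu), ?_⟩
      rw [pow_succ, hv', pow_succ]
      group
  obtain ⟨v, hv, hv'⟩ := h1 (r ^ k)
  rw [hk] at hv'
  have h2 : t ^ r ^ k ∈ UU C x := by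
    have h3 : t ^ r ^ k = v⁻¹ := eq_inv_of_mul_eq_one_right hv'.symm
    rw [h3]
    exact inv_mem hv
  obtain ⟨m, hm⟩ := XU.UU_pgroup h r ⟨_, h2⟩
  have h3 : (t ^ r ^ k) ^ r ^ m = 1 := by
    have := congrArg Subtype.val hm
    simpa using this
  rw [← pow_mul, ← pow_add] at h3
  rw [T_eq_one h hc r ht h3, mul_one]
  exact hu

lemma inf_mem (h : CS C x) {b : L} (hb : b ∈ BB C x) (hn : b ∈ NN C x) : b ∈ TT C x := by
  rw [← h.inf_eq]
  exact ⟨hb, hn⟩

/-- generation -/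
lemma gen_BN (h : CS C x) : BB C x ⊔ NN C x = ⊤ := by
  rw [eq_top_iff, ← h.gen, gr, closure_le]
  have key : ∀ j, ∀ u, x j u ∈ BB C x ⊔ NN C x := by
    apply C.gen (fun j => ∀ u, x j u ∈ BB C x ⊔ NN C x)
    · intro i hi u
      exact mem_sup_left (UU_le (x_mem_UU (C.simp_pos i hi) u))
    · intro i j hi hj u
      obtain ⟨c, hc, h1⟩ := n_act h i j
      have h2 := h1 (c⁻¹ * u)
      rw [mul_inv_cancel_left₀ hc] at h2
      rw [← h2]
      have h3 : nn C.neg x i 1 ∈ BB C x ⊔ NN C x := mem_sup_right (h.SS_le _ ⟨i, hi, rfl⟩)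
      exact mul_mem (mul_mem h3 (hj _)) (inv_mem h3)
  rintro _ ⟨j, u, -, rfl⟩
  exact key j u

/-- the diagram is connected -/
lemma irr_of (h : CS C x) {i j : ι} (hi : C.simp i) (hj : C.simp j) (hij : i ≠ j)
    (hp : C.pr j i ≠ 0) :
    (nn C.neg x j 1 * nn C.neg x i 1)⁻¹ * (nn C.neg x i 1 * nn C.neg x j 1) ∉ BB C x := by
  intro hB
  obtain ⟨c1, hc1, h1⟩ := n_act h j j
  obtain ⟨c2, hc2, h2⟩ := n_act h i (C.s j j)
  obtain ⟨c4, hc4, h4⟩ := n_act h i j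
  obtain ⟨c5, hc5, h5⟩ := n_act h j (C.s i j)
  set a := nn C.neg x i 1 with ha
  set b := nn C.neg x j 1 with hb
  have haN : a ∈ NN C x := h.SS_le _ ⟨i, hi, rfl⟩
  have hbN : b ∈ NN C x := h.SS_le _ ⟨j, hj, rfl⟩
  have hT : (b * a)⁻¹ * (a * b) ∈ TT C x :=
    inf_mem h hB (mul_mem (inv_mem (mul_mem hbN haN)) (mul_mem haN hbN))
  set t := (b * a)⁻¹ * (a * b) with ht
  have e0 : a * b = b * a * t := by rw [ht, mul_inv_cancel_left]
  -- the root `v = s_i(j)`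
  have hv : 0 < C.ht (C.s i j) := C.s_pos i j hi (C.simp_pos j hj) (Ne.symm hij)
  have hvj : C.s i j ≠ j := (C.adj i j hi hj hij hp).1
  have hw : 0 < C.ht (C.s j (C.s i j)) := C.s_pos j _ hj hv hvj
  obtain ⟨c3, hc3, h3⟩ := h.T_act hT j
  have e1 : a * b * x j 1 * (a * b)⁻¹ = x (C.s i (C.s j j)) (c2 * (c1 * 1)) := by
    rw [← h2, ← h1]
    group
  have e2 : b * a * t * x j 1 * (b * a * t)⁻¹ = x (C.s j (C.s i j)) (c5 * (c4 * (c3 * 1))) := by
    rw [← h5, ← h4, ← h3]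
    group
  rw [← e0, e1, C.s_self, C.s_neg] at e2
  have hneg : C.ht (C.neg (C.s i j)) < 0 := by
    rw [C.ht_neg]
    omega
  have h6 : x (C.neg (C.s i j)) (c2 * (c1 * 1)) ∈ UU C x := by
    rw [e2]
    exact x_mem_UU hw _
  have h7 := h.x_not_mem hneg h6
  rw [mul_one] at h7
  exact mul_ne_zero hc2 hc1 h7

/-- **The split BN-pair.** -/
theorem splitBN [Finite ι] [Finite F] [Finite L] (h : CS C x)
    (hc : ∀ g : L, (∀ y, g * y = y * g) → g = 1) (r : ℕ) [Fact r.Prime] [CharP F r] :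
    SplitBN r (BB C x) (NN C x) (UU C x) (SS C x) where
  norm n hn t ht htN := TT_le_BB (N_conj_T h hn (inf_mem h ht htN))
  sub := h.SS_le
  span := by rw [h.inf_eq]; rfl
  sq := by
    rintro _ ⟨i, hi, rfl⟩
    exact TT_le_BB (h.nn_nn one_ne_zero one_ne_zero)
  mul := by
    rintro _ ⟨i, hi, rfl⟩ b hb n hn
    exact mul_DC h hi hb hn
  thick := by
    rintro _ ⟨i, hi, rfl⟩
    refine ⟨x i 1, UU_le (x_mem_UU (C.simp_pos i hi) 1), fun hB => ?_⟩
    obtain ⟨c, hc0, h1⟩ := n_inv_act h i i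
    rw [h1, C.s_self, mul_one] at hB
    have h2 : x (C.neg i) c ^ r ^ 1 = 1 := by
      rw [pow_one, XU.x_pow h, CharP.cast_eq_zero, zero_mul, h.x_zero]
    exact hc0 (h.x_not_mem (simp_neg_lt hi) (mem_U_of_pow h hc r hB h2))
  gen := gen_BN h
  le := UU_le
  pgroup := XU.UU_pgroup h r
  normal b hb u hu := h.B_conj_U hb hu
  split b hb := by
    obtain ⟨u, hu, t, ht, rfl⟩ := h.mem_BB hb
    exact ⟨u, hu, t, TT_le_BB ht, TT_le ht, rfl⟩
  coprime := by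
    rw [h.inf_eq]
    intro hdvd
    obtain ⟨g, hg⟩ := exists_prime_orderOf_dvd_card' (G := TT C x) r hdvd
    have h1 : g.1 = 1 := by
      apply T_eq_one h hc r g.2 (k := 1)
      rw [pow_one]
      have h2 := pow_orderOf_eq_one g
      rw [hg] at h2
      have := congrArg Subtype.val h2
      simpa using this
    have h3 : g = 1 := Subtype.ext h1
    rw [h3, orderOf_one] at hg
    exact (Fact.out : r.Prime).one_lt.ne hg
  strong := by
    rintro _ ⟨i, hi, rfl⟩ y hy hy' u hu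
    exact Ui_le i (Ui_conj_n h hi (Ui_normal h hi hu (mem_Ui h hi hy hy')))
  opp := by
    obtain ⟨l, hl, hl'⟩ := C.long
    refine ⟨nl C x l, nl_mem hl, fun y hy hy' => ?_⟩
    have h1 : nl C x l * y * (nl C x l)⁻¹ ∈ UM C x :=
      h.nl_conj_gr (p := fun j => 0 < C.ht j) (q := fun j => C.ht j < 0) hl' hy
    have h2 : nl C x l * y * (nl C x l)⁻¹ ∈ UU C x ⊓ UM C x := ⟨hy', h1⟩
    rw [show UU C x ⊓ UM C x = ⊥ from h.opp, mem_bot] at h2
    rw [mul_inv_eq_one, mul_eq_left] at h2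
    exact h2
  nonempty := by
    obtain ⟨i, hi⟩ := C.ex
    exact ⟨_, i, hi, rfl⟩
  irr := by
    intro J hJ hne hne' _
    by_contra hcon
    push Not at hcon
    obtain ⟨b, hb, hbJ⟩ := hne'
    obtain ⟨j, hj, rfl⟩ := hb
    obtain ⟨a, ha⟩ := hne
    obtain ⟨i, hi, rfl⟩ := hJ ha
    apply hbJ
    refine C.conn (fun k => nn C.neg x k 1 ∈ J) ⟨i, hi, ha⟩ ?_ j hj
    intro k l hk hl hkJ hp
    by_contra hlJ
    have hkl : k ≠ l := by
      rintro rfl
      exact hlJ hkJ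
    exact irr_of h hk hl hkl hp (hcon _ hkJ _ ⟨⟨l, hl, rfl⟩, hlJ⟩)

end

theorem stmtX3 : StmtX3.{u} := by
  intro ι _ F _ _ L _ _ r _ _ C x h _ hc
  exact splitBN h hc r

end Vale.Agent.P240.R2.H684.XB
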