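import Vale.Agent.P240.R2.AS.Defs

/-!
P240, row LN (helper684): `n * t F ≤ #F`: the brackets with a fixed last letter suffice.
-/

set_option autoImplicit false
set_option linter.all false

namespace Vale.Agent.P240.R2.H684

open Finset
open Vale.Agent.P240.R2.H986
open Vale.Agent.P240.R2.AS (SOL bm t)

universe u v

section identity

variable {L : Type u} {K : Type v} [Field K]

/-- shift of the suffix -/
lemma ev_shift_r (z : List L → K) (l : L) (g : List L) : ∀ u v,
    ev (fun w => z (w ++ [l])) g u v = ev z g u (v ++ [l]) := by
  induction g with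
  | nil => intro u v; simp [ev_nil]
  | cons a g ih =>
    intro u v
    rcases g.eq_nil_or_concat' with rfl | h
    · simp [ev_single]
    · have hg : g ≠ [] := by rcases h with ⟨a, b, rfl⟩; simp
      rw [ev_cons _ _ hg, ev_cons _ _ hg, ih, ih]
      simp

lemma ev_pre (z : List L → K) (l : L) (g : List L) :
    ev z g [l] [] = ev (fun w => z (l :: w)) g [] [] := (ev_shift z l g [] []).symm

lemma ev_suf (z : List L → K) (l : L) (g : List L) :
    ev z g [] [l] = ev (fun w => z (w ++ [l])) g [] [] := by
  rw [ev_shift_r]
  simp

/-- with prefix and suffix -/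
lemma ev_in (z : List L → K) (g : List L) : ∀ p q u v : List L,
    ev (fun w => z (p ++ w ++ q)) g u v = ev z g (p ++ u) (v ++ q) := by
  induction g with
  | nil => intro p q u v; simp [ev_nil]
  | cons a g ih =>
    intro p q u v
    rcases g.eq_nil_or_concat' with rfl | h
    · simp [ev_single]
    · have hg : g ≠ [] := by rcases h with ⟨a, b, rfl⟩; simp
      rw [ev_cons _ _ hg, ev_cons _ _ hg, ih, ih]
      simp

/-- one step, at the level of functions of words of length `|g|` -/
lemma ev_fun {z z' : List L → K} {g : List L} (h : ∀ w : List L, w.length = g.length → z w = z' w) :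
    ev z g [] [] = ev z' g [] [] := by
  refine ev_congr g [] [] fun w hw => h w ?_
  have := hw.length_eq
  simpa using this

/-- **super Jacobi identity** -/
theorem jac (z : List L → K) (g : List L) : g ≠ [] → ∀ (m : List L), m ≠ [] → ∀ p q : List L,
    ev (fun w => ev z (w ++ m) p q) g [] [] = ev (fun w => ev z m (p ++ w) q) g [] [] -
      (-1) ^ (g.length * m.length) * ev (fun w => ev z m p (w ++ q)) g [] [] := by
  induction g with
  | nil => intro h; exact absurd rfl h
  | cons a g ih =>
    intro _ m hm p q
    rcases g.eq_nil_or_concat' with rfl | h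
    · simp only [ev_single, List.nil_append, List.length_singleton, one_mul, List.singleton_append]
      rw [ev_cons _ _ hm]
      rw [pow_succ]
      ring
    · have hg : g ≠ [] := by rcases h with ⟨a, b, rfl⟩; simp
      rw [ev_cons _ _ hg, ev_cons _ _ hg, ev_cons _ _ hg, List.nil_append]
      rw [ev_pre, ev_suf, ev_pre, ev_suf, ev_pre, ev_suf]
      have e1 : ev (fun w => ev z ((a :: w) ++ m) p q) g [] [] =
          ev (fun w => ev z (w ++ m) (p ++ [a]) q) g [] [] +
            (-1) ^ (g.length + m.length + 1) * ev (fun w => ev z (w ++ m) p (a :: q)) g [] [] := by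
        rw [← ev_smul, ← ev_add]
        refine ev_fun fun w hw => ?_
        have hne : w ++ m ≠ [] := by simp [hm]
        simp only [Pi.add_apply, Pi.smul_apply, smul_eq_mul]
        rw [List.cons_append, ev_cons _ _ hne, List.length_append, hw]
      have e2 : ev (fun w => ev z ((w ++ [a]) ++ m) p q) g [] [] =
          ev (fun w => ev z (w ++ (a :: m)) p q) g [] [] := by
        refine ev_fun fun w hw => ?_
        simp
      have e3 : ev (fun w => ev z (a :: m) (p ++ w) q) g [] [] =
          ev (fun w => ev z m (p ++ (w ++ [a])) q) g [] [] +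
            (-1) ^ (m.length + 1) * ev (fun w => ev z m (p ++ w) (a :: q)) g [] [] := by
        rw [← ev_smul, ← ev_add]
        refine ev_fun fun w hw => ?_
        simp only [Pi.add_apply, Pi.smul_apply, smul_eq_mul]
        rw [ev_cons _ _ hm]
        simp
      have e4 : ev (fun w => ev z (a :: m) p (w ++ q)) g [] [] =
          ev (fun w => ev z m (p ++ [a]) (w ++ q)) g [] [] +
            (-1) ^ (m.length + 1) * ev (fun w => ev z m p ((a :: w) ++ q)) g [] [] := by
        rw [← ev_smul, ← ev_add]
        refine ev_fun fun w hw => ?_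
        simp only [Pi.add_apply, Pi.smul_apply, smul_eq_mul]
        rw [ev_cons _ _ hm]
        simp
      have e5 : ev (fun w => ev z m (p ++ (a :: w)) q) g [] [] =
          ev (fun w => ev z m ((p ++ [a]) ++ w) q) g [] [] := by
        refine ev_fun fun w hw => ?_
        simp
      have e6 : ev (fun w => ev z m p ((w ++ [a]) ++ q)) g [] [] =
          ev (fun w => ev z m p (w ++ (a :: q))) g [] [] := by
        refine ev_fun fun w hw => ?_
        simp
      rw [e1, e2, ih hg m hm, ih hg m hm, ih hg (a :: m) (by simp), e3, e4, e5, e6]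
      simp only [List.length_cons]
      have s1 : (-1 : K) ^ (g.length * (m.length + 1)) =
          (-1) ^ (g.length * m.length) * (-1) ^ g.length := by
        rw [← pow_add]
        congr 1
      have s2 : (-1 : K) ^ ((g.length + 1) * m.length) =
          (-1) ^ (g.length * m.length) * (-1) ^ m.length := by
        rw [← pow_add]
        congr 1
        ring
      have s3 : (-1 : K) ^ (g.length + m.length + 1) =
          (-1) ^ g.length * (-1) ^ m.length * (-1) := by
        rw [pow_succ, pow_add]
      have s4 : (-1 : K) ^ (m.length + 1) = (-1) ^ m.length * (-1) := pow_succ _ _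
      have s5 : (-1 : K) ^ (g.length + 1) = (-1) ^ g.length * (-1) := pow_succ _ _
      have s6 : ((-1 : K) ^ g.length) * (-1) ^ g.length = 1 := by
        rw [← mul_pow]
        simp
      rw [s1, s2, s3, s4, s5]
      generalize ev (fun w => ev z m (p ++ [a] ++ w) q) g [] [] = A
      generalize ev (fun w => ev z m (p ++ [a]) (w ++ q)) g [] [] = B
      generalize ev (fun w => ev z m (p ++ w) (a :: q)) g [] [] = C
      generalize ev (fun w => ev z m p (w ++ a :: q)) g [] [] = D
      generalize ev (fun w => ev z m (p ++ (w ++ [a])) q) g [] [] = E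
      generalize ev (fun w => ev z m p (a :: w ++ q)) g [] [] = G
      generalize (-1 : K) ^ (g.length * m.length) = s at *
      generalize (-1 : K) ^ g.length = x at *
      generalize (-1 : K) ^ m.length = y at *
      linear_combination (s * B - s * y * G) * s6

/-- the last letter of a bracket -/
theorem ev_last (z : List L → K) (u : List L) (l : L) {g : List L} (hg : g ≠ []) : ∀ p q : List L,
    ev z (u ++ l :: g) p q =
      (-1) ^ (g.length + 1) * ev (fun w => ev z (u ++ w ++ [l]) p q) g [] [] := by
  induction u with
  | nil =>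
    intro p q
    have h1 := jac z g hg [l] (by simp) p q
    simp only [List.nil_append]
    rw [h1]
    have h2 : ev (fun w => ev z [l] (p ++ w) q) g [] [] = ev z g p (l :: q) := by
      have := ev_in z g p (l :: q) [] []
      simp only [List.append_nil, List.nil_append] at this
      rw [← this]
      refine ev_fun fun w hw => ?_
      rw [ev_single]
    have h3 : ev (fun w => ev z [l] p (w ++ q)) g [] [] = ev z g (p ++ [l]) q := by
      have := ev_in z g (p ++ [l]) q [] []
      simp only [List.append_nil, List.nil_append] at this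
      rw [← this]
      refine ev_fun fun w hw => ?_
      rw [ev_single]
      simp
    rw [h2, h3, ev_cons _ _ hg]
    simp only [List.length_singleton, mul_one]
    have s6 : ((-1 : K) ^ g.length) * (-1) ^ g.length = 1 := by
      rw [← mul_pow]
      simp
    rw [pow_succ]
    linear_combination (-(ev z g (p ++ [l]) q)) * s6
  | cons a u ih =>
    intro p q
    have hne : u ++ l :: g ≠ [] := by simp
    rw [List.cons_append, ev_cons _ _ hne, ih, ih]
    have e1 : ev (fun w => ev z (a :: u ++ w ++ [l]) p q) g [] [] =
        ev (fun w => ev z (u ++ w ++ [l]) (p ++ [a]) q) g [] [] +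
          (-1) ^ ((u ++ l :: g).length + 1) *
            ev (fun w => ev z (u ++ w ++ [l]) p (a :: q)) g [] [] := by
      rw [← ev_smul, ← ev_add]
      refine ev_fun fun w hw => ?_
      simp only [Pi.add_apply, Pi.smul_apply, smul_eq_mul]
      have hne : u ++ w ++ [l] ≠ [] := by simp
      rw [List.cons_append, List.cons_append, ev_cons _ _ hne]
      congr 3
      simp [hw]
    rw [e1]
    ring

end identity

noncomputable section count

open Classical

variable {L : Type u}

/-- the words of `F` that end with their smallest letter -/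
def Fm (F : Finset (List L)) (e : L → ℕ) : Finset (List L) :=
  F.filter (fun w => ∃ a l, w = a ++ [l] ∧ ∀ x ∈ w, e l ≤ e x)

lemma exists_min (e : L → ℕ) {w : List L} (hw : w ≠ []) : ∃ l ∈ w, ∀ x ∈ w, e l ≤ e x := by
  have h : w.toFinset.Nonempty := by
    obtain ⟨a, ha⟩ := List.exists_mem_of_ne_nil w hw
    exact ⟨a, List.mem_toFinset.2 ha⟩
  obtain ⟨l, hl, hmin⟩ := Finset.exists_min_image w.toFinset e h
  exact ⟨l, List.mem_toFinset.1 hl, fun x hx => hmin x (List.mem_toFinset.2 hx)⟩

/-- rotations -/
theorem card_Fm {F : Finset (List L)} {n : ℕ} {e : L → ℕ} (he : Function.Injective e)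
    (hlen : ∀ w ∈ F, w.length = n) (hnd : ∀ w ∈ F, w.Nodup)
    (hp : ∀ w ∈ F, ∀ w', w.Perm w' → w' ∈ F) : n * (Fm F e).card ≤ F.card := by
  rw [← Finset.card_range n, ← Finset.card_product]
  refine Finset.card_le_card_of_injOn (fun x => x.2.drop x.1 ++ x.2.take x.1) ?_ ?_
  · rintro ⟨k, w⟩ h
    have hw : w ∈ F := by
      have := (Finset.mem_product.1 h).2
      exact (Finset.mem_filter.1 this).1
    refine hp w hw _ ?_
    calc w.Perm (w.take k ++ w.drop k) := by rw [List.take_append_drop]
      _ |>.Perm (w.drop k ++ w.take k) := List.perm_append_comm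
  · rintro ⟨k, w⟩ h ⟨k', w'⟩ h' heq
    obtain ⟨hk, hw⟩ := Finset.mem_product.1 h
    obtain ⟨hk', hw'⟩ := Finset.mem_product.1 h'
    simp only at hk hw hk' hw'
    obtain ⟨hwF, a, l, rfl, hmin⟩ := Finset.mem_filter.1 hw
    obtain ⟨hwF', a', l', rfl, hmin'⟩ := Finset.mem_filter.1 hw'
    have hla : a.length + 1 = n := by simpa using hlen _ hwF
    have hla' : a'.length + 1 = n := by simpa using hlen _ hwF'
    have hk1 : k ≤ a.length := by
      have := Finset.mem_range.1 hk
      omega
    have hk1' : k' ≤ a'.length := by
      have := Finset.mem_range.1 hk'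
      omega
    have heq' : (a ++ [l]).drop k ++ (a ++ [l]).take k =
        (a' ++ [l']).drop k' ++ (a' ++ [l']).take k' := heq
    rw [List.drop_append_of_le_length hk1, List.take_append_of_le_length hk1,
      List.drop_append_of_le_length hk1', List.take_append_of_le_length hk1'] at heq'
    have hperm : (a ++ [l]).Perm (a' ++ [l']) := by
      have p1 : (a ++ [l]).Perm (a.drop k ++ [l] ++ a.take k) := by
        have : a ++ [l] = a.take k ++ (a.drop k ++ [l]) := by
          rw [← List.append_assoc, List.take_append_drop]
        rw [this]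
        exact List.perm_append_comm
      have p2 : (a' ++ [l']).Perm (a'.drop k' ++ [l'] ++ a'.take k') := by
        have : a' ++ [l'] = a'.take k' ++ (a'.drop k' ++ [l']) := by
          rw [← List.append_assoc, List.take_append_drop]
        rw [this]
        exact List.perm_append_comm
      exact p1.trans (heq' ▸ p2.symm)
    have hll : l = l' := by
      have h1 : e l ≤ e l' := hmin l' (hperm.mem_iff.2 (by simp))
      have h2 : e l' ≤ e l := hmin' l (hperm.mem_iff.1 (by simp))
      exact he (le_antisymm h1 h2)
    subst hll
    have hn1 : l ∉ a := by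
      have := hnd _ hwF
      rw [List.nodup_append] at this
      intro hla
      exact this.2.2 l hla l (by simp) rfl
    have hn2 : l ∉ a' := by
      have := hnd _ hwF'
      rw [List.nodup_append] at this
      intro hla
      exact this.2.2 l hla l (by simp) rfl
    simp only [List.append_assoc, List.singleton_append] at heq'
    have h3 := (List.append_cons_inj_of_notMem (x₁ := a.drop k) (z₁ := a.take k)
      (x₂ := a'.drop k') (z₂ := a'.take k') (a₁ := l) (a₂ := l)
      (fun h => hn1 (List.mem_of_mem_drop h)) (fun h => hn1 (List.mem_of_mem_take h))).1 heq'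
    obtain ⟨h4, _, h5⟩ := h3
    have h6 : k = k' := by
      have := congrArg List.length h5
      rw [List.length_take, List.length_take] at this
      omega
    subst h6
    have h7 : a = a' := by
      rw [← List.take_append_drop k a, ← List.take_append_drop k a', h4, h5]
    rw [h7]

variable [Fintype L]

/-- the functions `g ↦ z(β(g))` are determined by their values on `Fm` -/
theorem t_le {F : Finset (List L)} (e : L → ℕ)
    (hne : ∀ w ∈ F, w ≠ []) (hp : ∀ w ∈ F, ∀ w', w.Perm w' → w' ∈ F) : t F ≤ (Fm F e).card := by
  have hsup : ∀ z ∈ SOL F, ∀ g : List L, g ∉ F → ev z g [] [] = 0 := by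
    intro z hz g hg
    refine ev_eq_zero g [] [] fun w hw => hz.1 w fun hwF => hg (hp w hwF g ?_)
    simpa using hw
  let φ : ((SOL F).map (bm L)) →ₗ[ℚ] ({w // w ∈ Fm F e} → ℚ) :=
    (LinearMap.funLeft ℚ ℚ (Subtype.val : {w // w ∈ Fm F e} → List L)).comp
      ((SOL F).map (bm L)).subtype
  have hφ : Function.Injective φ := by
    rw [injective_iff_map_eq_zero]
    rintro ⟨_, z, hz, rfl⟩ h0
    have h1 : ∀ w ∈ Fm F e, ev z w [] [] = 0 := fun w hw => congrFun h0 ⟨w, hw⟩
    ext g
    show ev z g [] [] = 0
    by_cases hg : g ∈ F
    · obtain ⟨l, hl, hmin⟩ := exists_min e (hne g hg)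
      obtain ⟨a, b, rfl⟩ := List.append_of_mem hl
      rcases b.eq_nil_or_concat' with rfl | h
      · exact h1 _ (Finset.mem_filter.2 ⟨hg, a, l, rfl, hmin⟩)
      · have hb : b ≠ [] := by rcases h with ⟨a, b, rfl⟩; simp
        rw [ev_last z a l hb [] []]
        have h2 : ev (fun w => ev z (a ++ w ++ [l]) [] []) b [] [] = 0 := by
          refine ev_eq_zero b [] [] fun w hw => ?_
          have hw' : w.Perm b := by simpa using hw
          have hperm : (a ++ l :: b).Perm (a ++ w ++ [l]) := by
            rw [List.append_assoc]
            refine List.Perm.append_left a ?_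
            refine List.Perm.trans ?_ List.perm_append_comm
            rw [List.singleton_append]
            exact List.Perm.cons l hw'.symm
          refine h1 _ (Finset.mem_filter.2 ⟨hp _ hg _ hperm, a ++ w, l, rfl, fun x hx => ?_⟩)
          exact hmin x (hperm.mem_iff.2 hx)
        rw [h2, mul_zero]
    · exact hsup z hz g hg
  have h2 := LinearMap.finrank_le_finrank_of_injective hφ
  unfold t
  refine h2.trans (le_of_eq ?_)
  rw [Module.finrank_pi, Fintype.card_coe]

/-- **LN** -/
theorem ln (F : Finset (List L)) (n : ℕ) (hlen : ∀ w ∈ F, w.length = n)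
    (hnd : ∀ w ∈ F, w.Nodup) (hp : ∀ w ∈ F, ∀ w', w.Perm w' → w' ∈ F) : n * t F ≤ F.card := by
  rcases Nat.eq_zero_or_pos n with rfl | hn
  · simp
  · let e : L → ℕ := fun x => (Fintype.equivFin L x : ℕ)
    have he : Function.Injective e := fun x y h => (Fintype.equivFin L).injective (Fin.ext h)
    refine (Nat.mul_le_mul_left n (t_le e ?_ hp)).trans (card_Fm he hlen hnd hp)
    rintro w hw rfl
    have := hlen _ hw
    simp at this
    omega

end count

end Vale.Agent.P240.R2.H684
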