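import Vale.Agent.P240.R2.H684.LN
import Vale.Agent.P240.R2.H296.StmtsO

/-! Row LN in the literal form (helper684). -/

set_option autoImplicit false

namespace Vale.Agent.P240.R2.H684

universe u

theorem stmtLN : Vale.Agent.P240.R2.AS.StmtLN.{u} := fun _ _ F n h1 h2 h3 => ln F n h1 h2 h3

end Vale.Agent.P240.R2.H684
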